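import Vale.Agent.Lib.P208.H28.Pigeon

/-!
# P208 (helper5): convex pieces of a doubling subset of a Hilbert space

General form of the convex case: the covering hypothesis is imposed on an arbitrary set `K`
(centres of the covering balls anywhere), and the conclusion is about every convex subset of
`K`; finite unions of convex sets follow.
-/

namespace Vale.Agent.Lib.P208.H5

open Metric Set
open Vale.Agent.Lib.P208.H28

variable {H : Type*} [NormedAddCommGroup H] [InnerProductSpace ℝ H]

/-- If `C ⊆ K` is convex, `K` satisfies the covering hypothesis with `N` and `C` contains `n`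
independent directions from `x0`, then `2 n ≤ N`. -/
theorem two_mul_le_of_independent_sub {K C : Set H} (hCK : C ⊆ K) (hC : Convex ℝ C) (N : ℕ)
    (hdoub : ∀ x ∈ K, ∀ r : ℝ, 0 < r → ∃ B : Finset H, B.card ≤ N ∧
      K ∩ ball x r ⊆ ⋃ c ∈ B, closedBall c (r / 2))
    {n : ℕ} {x0 : H} (hx0 : x0 ∈ C) (y : Fin n → H) (hy : ∀ j, y j ∈ C)
    (hv : LinearIndependent ℝ (fun j => y j - x0)) : 2 * n ≤ N := by
  obtain ⟨c, R, e, hc, hR, he, hmem⟩ := exists_cross_polytope hC hx0 y hy hv
  obtain ⟨B, hcard, hcover⟩ := hdoub c (hCK hc) (6 / 5 * R) (by positivity)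
  have hvK : ∀ p : Fin n × Bool, vertex c R e p ∈ K := by
    intro p
    unfold vertex
    split_ifs
    · exact hCK (hmem p.1).1
    · exact hCK (hmem p.1).2
  have hvball : ∀ p : Fin n × Bool, vertex c R e p ∈ K ∩ ball c (6 / 5 * R) := by
    intro p
    refine ⟨hvK p, ?_⟩
    rw [mem_ball, vertex_dist_center c hR he p]
    linarith
  have hex : ∀ p : Fin n × Bool, ∃ z ∈ B, vertex c R e p ∈ closedBall z (6 / 5 * R / 2) := by
    intro p
    have := hcover (hvball p)
    simpa [mem_iUnion] using this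
  choose g hgB hgball using hex
  have hinj : Function.Injective g := by
    intro p q hpq
    by_contra hne
    have h1 : dist (vertex c R e p) (g p) ≤ 6 / 5 * R / 2 := mem_closedBall.mp (hgball p)
    have h2 : dist (vertex c R e q) (g p) ≤ 6 / 5 * R / 2 := by
      rw [hpq]; exact mem_closedBall.mp (hgball q)
    have h3 : dist (vertex c R e p) (vertex c R e q) ≤ 6 / 5 * R := by
      calc dist (vertex c R e p) (vertex c R e q)
          ≤ dist (vertex c R e p) (g p) + dist (g p) (vertex c R e q) := dist_triangle _ _ _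
        _ ≤ 6 / 5 * R / 2 + 6 / 5 * R / 2 := by
            rw [dist_comm (g p)]; exact add_le_add h1 h2
        _ = 6 / 5 * R := by ring
    have h4 := vertex_dist_sq c hR he hne
    have h5 : dist (vertex c R e p) (vertex c R e q) ^ 2 ≤ (6 / 5 * R) ^ 2 :=
      pow_le_pow_left₀ dist_nonneg h3 2
    nlinarith [sq_pos_of_pos hR]
  have hcard2 : Fintype.card (Fin n × Bool) ≤ B.card := by
    have := Finset.card_le_card_of_injOn (s := (Finset.univ : Finset (Fin n × Bool))) (t := B) g
      (fun p _ => hgB p) (fun p _ q _ h => hinj h)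
    simpa using this
  have h6 : Fintype.card (Fin n × Bool) = 2 * n := by
    simp [Fintype.card_prod, mul_comm]
  omega

/-- Any finite linearly independent subset of `{y - x0 : y ∈ C}` has at most `N / 2`
elements. -/
theorem card_le_of_linearIndependent_sub {K C : Set H} (hCK : C ⊆ K) (hC : Convex ℝ C) (N : ℕ)
    (hdoub : ∀ x ∈ K, ∀ r : ℝ, 0 < r → ∃ B : Finset H, B.card ≤ N ∧
      K ∩ ball x r ⊆ ⋃ c ∈ B, closedBall c (r / 2))
    {x0 : H} (hx0 : x0 ∈ C) (t : Finset H) (ht : (↑t : Set H) ⊆ (fun y => y - x0) '' C)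
    (hli : LinearIndependent ℝ (Subtype.val : (↑t : Set H) → H)) : 2 * t.card ≤ N := by
  classical
  set n := t.card with hn
  have eq : Fin n ≃ (↑t : Set H) := (t.equivFin).symm
  have hex : ∀ j : Fin n, ∃ y ∈ C, y - x0 = (eq j : H) := by
    intro j
    have : (eq j : H) ∈ (fun y => y - x0) '' C := ht (eq j).2
    obtain ⟨y, hy, hyeq⟩ := this
    exact ⟨y, hy, hyeq⟩
  choose y hyC hyeq using hex
  have hv : LinearIndependent ℝ (fun j => y j - x0) := by
    have h1 : LinearIndependent ℝ (fun j : Fin n => ((eq j : (↑t : Set H)) : H)) :=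
      hli.comp eq eq.injective
    have h2 : (fun j => y j - x0) = fun j : Fin n => ((eq j : (↑t : Set H)) : H) := by
      funext j; exact hyeq j
    rw [h2]; exact h1
  exact two_mul_le_of_independent_sub hCK hC N hdoub hx0 y hyC hv

/-- The differences `y - x0`, `y ∈ C`, are spanned by a finite set with at most `N / 2`
elements. -/
theorem exists_finset_span {K C : Set H} (hCK : C ⊆ K) (hC : Convex ℝ C) (N : ℕ)
    (hdoub : ∀ x ∈ K, ∀ r : ℝ, 0 < r → ∃ B : Finset H, B.card ≤ N ∧
      K ∩ ball x r ⊆ ⋃ c ∈ B, closedBall c (r / 2))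
    {x0 : H} (hx0 : x0 ∈ C) :
    ∃ b : Finset H, 2 * b.card ≤ N ∧
      Submodule.span ℝ ((fun y => y - x0) '' C) = Submodule.span ℝ (↑b : Set H) := by
  classical
  set S : Set H := (fun y => y - x0) '' C with hS
  obtain ⟨b, hbS, hbspan, hbli⟩ := exists_linearIndependent ℝ S
  have hbfin : b.Finite := by
    by_contra hinf
    obtain ⟨t, htb, htcard⟩ := (Set.not_finite.mp hinf).exists_subset_card_eq (N + 1)
    have hli : LinearIndependent ℝ (Subtype.val : (↑t : Set H) → H) :=
      LinearIndepOn.mono (R := ℝ) (v := (id : H → H)) hbli htb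
    have := card_le_of_linearIndependent_sub hCK hC N hdoub hx0 t (htb.trans hbS) hli
    omega
  have hbcard : 2 * hbfin.toFinset.card ≤ N := by
    have hsub : (↑hbfin.toFinset : Set H) ⊆ b := by simp
    have hli : LinearIndependent ℝ (Subtype.val : (↑hbfin.toFinset : Set H) → H) :=
      LinearIndepOn.mono (R := ℝ) (v := (id : H → H)) hbli hsub
    exact card_le_of_linearIndependent_sub hCK hC N hdoub hx0 hbfin.toFinset (hsub.trans hbS) hli
  refine ⟨hbfin.toFinset, hbcard, ?_⟩
  rw [Set.Finite.coe_toFinset, hbspan]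

/-- Every convex subset of `K` has a finite-dimensional direction space, of dimension at most
`N / 2`. -/
theorem convex_subset_finrank {K : Set H} (N : ℕ)
    (hdoub : ∀ x ∈ K, ∀ r : ℝ, 0 < r → ∃ B : Finset H, B.card ≤ N ∧
      K ∩ ball x r ⊆ ⋃ c ∈ B, closedBall c (r / 2))
    (C : Set H) (hCK : C ⊆ K) (hC : Convex ℝ C) :
    FiniteDimensional ℝ (vectorSpan ℝ C) ∧ 2 * Module.finrank ℝ (vectorSpan ℝ C) ≤ N := by
  classical
  rcases C.eq_empty_or_nonempty with hempty | ⟨x0, hx0⟩
  · subst hempty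
    rw [vectorSpan_empty]
    refine ⟨inferInstance, ?_⟩
    simp
  obtain ⟨b, hbcard, hbspan⟩ := exists_finset_span hCK hC N hdoub hx0
  have hvs : vectorSpan ℝ C = Submodule.span ℝ (↑b : Set H) := by
    rw [vectorSpan_eq_span_vsub_set_right ℝ hx0, ← hbspan]
    rfl
  rw [hvs]
  refine ⟨FiniteDimensional.span_finset ℝ b, ?_⟩
  have h1 : Module.finrank ℝ (Submodule.span ℝ (↑b : Set H)) ≤ b.card :=
    finrank_span_finset_le_card (R := ℝ) (M := H) b
  omega

/-- A set satisfying the covering hypothesis with `N` that is a union of `m ≥ 1` convex sets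
embeds isometrically into a Euclidean space of dimension `k` with `k + 1 ≤ m (N / 2 + 1)`. -/
theorem union_convex_embeds {K : Set H} (N : ℕ)
    (hdoub : ∀ x ∈ K, ∀ r : ℝ, 0 < r → ∃ B : Finset H, B.card ≤ N ∧
      K ∩ ball x r ⊆ ⋃ c ∈ B, closedBall c (r / 2))
    (m : ℕ) (C : Fin m → Set H) (hm : 1 ≤ m) (hC : ∀ i, Convex ℝ (C i))
    (hK : K = ⋃ i, C i) :
    ∃ k : ℕ, k + 1 ≤ m * (N / 2 + 1) ∧ ∃ f : K → EuclideanSpace ℝ (Fin k), Isometry f := by
  classical
  have hpos : 1 ≤ m * (N / 2 + 1) := Nat.mul_pos (by omega) (by omega)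
  have hCK : ∀ i, C i ⊆ K := fun i => by rw [hK]; exact subset_iUnion C i
  rcases K.eq_empty_or_nonempty with hempty | ⟨y0, hy0⟩
  · have hKe : ∀ z : H, z ∉ K := fun z hz => by
      rw [hempty] at hz
      exact hz
    refine ⟨0, by omega, fun x => absurd x.2 (hKe x), ?_⟩
    intro x
    exact absurd x.2 (hKe x)
  have hy0' : y0 ∈ ⋃ i, C i := hK ▸ hy0
  obtain ⟨i0, hi0⟩ := mem_iUnion.mp hy0'
  -- base points
  have hx : ∀ i, ∃ x : H, (i = i0 → x = y0) ∧ ((C i).Nonempty → x ∈ C i) := by
    intro i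
    by_cases h : i = i0
    · exact ⟨y0, fun _ => rfl, fun _ => h ▸ hi0⟩
    · by_cases hne : (C i).Nonempty
      · exact ⟨hne.some, fun h' => absurd h' h, fun _ => hne.some_mem⟩
      · exact ⟨y0, fun _ => rfl, fun h' => absurd h' hne⟩
  choose x hx0 hxmem using hx
  -- finite spanning sets
  have hb : ∀ i, ∃ b : Finset H, 2 * b.card ≤ N ∧
      ∀ y ∈ C i, y - x i ∈ Submodule.span ℝ (↑b : Set H) := by
    intro i
    by_cases hne : (C i).Nonempty
    · obtain ⟨b, hbcard, hbspan⟩ := exists_finset_span (hCK i) (hC i) N hdoub (hxmem i hne)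
      refine ⟨b, hbcard, fun y hy => ?_⟩
      rw [← hbspan]
      exact Submodule.subset_span ⟨y, hy, rfl⟩
    · exact ⟨∅, by simp, fun y hy => absurd ⟨y, hy⟩ hne⟩
  choose b hbcard hbspan using hb
  set T : Finset H := (Finset.univ.biUnion b) ∪
    ((Finset.univ.erase i0).image (fun i => x i - y0)) with hT
  have hTcard : T.card + 1 ≤ m * (N / 2 + 1) := by
    have h1 : (Finset.univ.biUnion b).card ≤ ∑ i : Fin m, (b i).card := Finset.card_biUnion_le
    have h2 : ∑ i : Fin m, (b i).card ≤ ∑ _i : Fin m, N / 2 :=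
      Finset.sum_le_sum (fun i _ => by have := hbcard i; omega)
    have h3 : ∑ _i : Fin m, N / 2 = m * (N / 2) := by simp
    have h4 : ((Finset.univ.erase i0).image (fun i => x i - y0)).card ≤ m - 1 := by
      refine Finset.card_image_le.trans ?_
      rw [Finset.card_erase_of_mem (Finset.mem_univ i0)]
      simp
    have h5 : T.card ≤ (Finset.univ.biUnion b).card +
        ((Finset.univ.erase i0).image (fun i => x i - y0)).card := Finset.card_union_le _ _
    have h6 : m * (N / 2 + 1) = m * (N / 2) + m := by ring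
    omega
  set V : Submodule ℝ H := Submodule.span ℝ (↑T : Set H) with hV
  have hfinV : FiniteDimensional ℝ V := FiniteDimensional.span_finset ℝ T
  have hrank : Module.finrank ℝ V ≤ T.card := finrank_span_finset_le_card (R := ℝ) (M := H) T
  have hmemV : ∀ y : K, (y : H) - y0 ∈ V := by
    intro y
    have hy' : (y : H) ∈ ⋃ i, C i := hK ▸ y.2
    obtain ⟨i, hi⟩ := mem_iUnion.mp hy'
    have hsplit : (y : H) - y0 = ((y : H) - x i) + (x i - y0) := by abel
    rw [hsplit]
    refine Submodule.add_mem _ ?_ ?_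
    · have hle : Submodule.span ℝ (↑(b i) : Set H) ≤ V := by
        apply Submodule.span_mono
        intro z hz
        have hz' : z ∈ b i := hz
        show z ∈ (↑T : Set H)
        rw [Finset.mem_coe, hT, Finset.mem_union]
        exact Or.inl (Finset.mem_biUnion.mpr ⟨i, Finset.mem_univ i, hz'⟩)
      exact hle (hbspan i y hi)
    · by_cases h : i = i0
      · rw [hx0 i h, sub_self]
        exact Submodule.zero_mem _
      · apply Submodule.subset_span
        show x i - y0 ∈ (↑T : Set H)
        rw [Finset.mem_coe, hT, Finset.mem_union]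
        exact Or.inr (Finset.mem_image.mpr ⟨i, Finset.mem_erase.mpr ⟨h, Finset.mem_univ i⟩, rfl⟩)
  refine ⟨Module.finrank ℝ V, by omega, ?_⟩
  refine ⟨fun y => (stdOrthonormalBasis ℝ V).repr ⟨(y : H) - y0, hmemV y⟩, ?_⟩
  refine Isometry.of_dist_eq (fun y z => ?_)
  rw [LinearIsometryEquiv.dist_map, Subtype.dist_eq, Subtype.dist_eq, dist_eq_norm,
    dist_eq_norm]
  congr 1
  show (y : H) - y0 - ((z : H) - y0) = (y : H) - z
  abel

end Vale.Agent.Lib.P208.H5
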